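import Vale.Agent.P186.Basic

namespace Vale.Agent.Results.P186.UniversalDelta

open SimpleGraph Vale.Agent.P186

universe u

lemma exists_good_generators {G : Type u} [Group G] (h : WordHyperbolic G) (A : Finset G) :
    ∃ S : Finset G, A ⊆ S ∧ Subgroup.closure (S : Set G) = ⊤ ∧
      FourPoint (mulCayley (S : Set G)) 2 := by
  obtain ⟨S, hS, δ, hδ⟩ := h
  have hc := cayley_connected hS
  have h4 := fourPoint_of_thin hc hδ
  let R : ℕ := 6 * δ + 2 + A.sup (fun a => (mulCayley (S : Set G)).dist 1 a)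
  have hR : 1 ≤ R := by simp only [R]; omega
  refine ⟨ballSet S hS R, ?_, closure_ballSet hR, fourPoint_ballSet hR (by simp only [R]; omega) h4⟩
  intro a ha
  rw [mem_ballSet]
  have : (mulCayley (S : Set G)).dist 1 a ≤ A.sup (fun a => (mulCayley (S : Set G)).dist 1 a) :=
    Finset.le_sup (f := fun a => (mulCayley (S : Set G)).dist 1 a) ha
  simp only [R]
  omega

lemma wordHyperbolic_of_fourPoint {G : Type u} [Group G] (S : Finset G)
    (hS : Subgroup.closure (S : Set G) = ⊤) {c : ℕ} (h : FourPoint (mulCayley (S : Set G)) c) :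
    WordHyperbolic G :=
  ⟨S, hS, 2 * c, thin_of_fourPoint (cayley_connected hS) h⟩

theorem result :
    (∀ (G : Type u) [Group G], WordHyperbolic G ↔
      ∃ S : Finset G, Subgroup.closure (S : Set G) = ⊤ ∧
        FourPoint (mulCayley (S : Set G)) 2) ∧
    ((∀ (G : Type u) [Group G], WordHyperbolic G → Group.ResiduallyFinite G) ↔
      ∀ (G : Type u) [Group G] (S : Finset G), Subgroup.closure (S : Set G) = ⊤ →
        FourPoint (mulCayley (S : Set G)) 2 →
          ∀ s ∈ S, s ≠ 1 → ∃ H : Subgroup G, H.FiniteIndex ∧ s ∉ H) := by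
  refine ⟨fun G _ => ⟨fun h => ?_, fun ⟨S, hS, h⟩ => wordHyperbolic_of_fourPoint S hS h⟩,
    ⟨fun h G _ S hS h4 s _ hs1 => ?_, fun h G _ hG => ?_⟩⟩
  · obtain ⟨S, _, hS, h4⟩ := exists_good_generators h ∅
    exact ⟨S, hS, h4⟩
  · have := h G (wordHyperbolic_of_fourPoint S hS h4)
    exact Group.residuallyFinite_iff_exists_finiteIndex.1 this s hs1
  · rw [Group.residuallyFinite_iff_exists_finiteIndex]
    intro g hg
    obtain ⟨S, hgS, hS, h4⟩ := exists_good_generators hG {g}
    exact h G S hS h4 g (hgS (by simp)) hg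

end Vale.Agent.Results.P186.UniversalDelta
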